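import Vale.Agent.Thorp.Assemble
import Vale.Agent.Thorp.PartC
import Vale.Agent.Thorp.PartD

/-!
# P162: the Thorp shuffle of `2 ^ (d + 1)` cards mixes in `O(d ^ 2)` shuffles
-/

open scoped InnerProductSpace
open Equiv Vale.Agent.Thorp

namespace Vale.Agent.Results.P162.LogSquared

/-- `632 (d + 1)²` Thorp shuffles bring a deck of `2 · 2 ^ d` cards to total variation distance at
most `1 / 4` from the uniform law. -/
theorem tv_small (d t : ℕ) (ht : 632 * (d + 1) ^ 2 ≤ t) : tv (2 ^ d) t ≤ 1 / 4 := by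
  obtain ⟨e, he⟩ := thorp_pass d
  have h1 := assemble_norm (2 ^ d) d (632 * (d + 1)) e (he _ (reg (Fin (2 * 2 ^ d)))) t
    (by calc (d + 1) * (632 * (d + 1)) = 632 * (d + 1) ^ 2 := by ring
      _ ≤ t := ht)
  have hcardR : (Fintype.card (Fin (2 * 2 ^ d)) : ℝ) = 2 ^ (d + 1) := by
    rw [Fintype.card_fin, pow_succ]; push_cast; ring
  have hd0 : (0 : ℝ) ≤ d := Nat.cast_nonneg d
  have hT' : 2 * Real.log (Fintype.card (Fin (2 * 2 ^ d))) + 3 ≤
      ((632 * (d + 1) : ℕ) : ℝ) * (1 / 144) := by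
    rw [hcardR, Real.log_pow]
    push_cast
    have := Real.log_two_lt_d9
    nlinarith
  have h4 := transp_L2 (Fin (2 * 2 ^ d)) hT'
  rw [hcardR, Fintype.card_fin] at h4
  have h5 := tv_le (2 ^ d) t
  exact h5.trans (final_calc (Nat.cast_nonneg _) h1 (norm_nonneg _) h4)

/-- **Mixing time of the Thorp shuffle.** For the deck of `n = 2 · 2 ^ d = 2 ^ (d + 1)` cards,
`t_mix (n) ≤ 632 (d + 1)² = 632 (log₂ n)²`, and the total variation distance is at most `1 / 4` at
every later time. -/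
theorem result (d : ℕ) :
    (∀ t : ℕ, 632 * (d + 1) ^ 2 ≤ t → tv (2 ^ d) t ≤ 1 / 4) ∧
      tmix (2 ^ d) ≤ 632 * (d + 1) ^ 2 :=
  ⟨fun t ht => tv_small d t ht, Nat.sInf_le (tv_small d _ le_rfl)⟩

end Vale.Agent.Results.P162.LogSquared
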