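import Vale.Agent.ThorpO.Flat
import Vale.Agent.ThorpO.Level
import Vale.Agent.ThorpO.Norm
import Vale.Agent.ThorpO.MainOf
import Vale.Agent.ThorpO.Lower

/-!
# P162: the Thorp shuffle of `n = 2 ^ (d + 1)` cards mixes in order `log n` shuffles
-/

open scoped InnerProductSpace
open Equiv Vale.Agent.Thorp

namespace Vale.Agent.Results.P162.ThetaLog

/-- Some multiple of `d + 1` Thorp shuffles bring a deck of `2 · 2 ^ d` cards to total variation
distance at most `1 / 4` from the uniform law. -/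
theorem upper : ∃ C : ℕ, ∀ d t : ℕ, C * (d + 1) ≤ t → tv (2 ^ d) t ≤ 1 / 4 :=
  ThorpO.MO.main_of ThorpO.flat_norm (fun m r b h _ hv => ThorpO.decay m r b h hv)
    ThorpO.level_trace ThorpO.all_trace
    (fun m j g r h1 h2 h3 _ hv hv' => ThorpO.level_norm m j g r h1 h2 h3 hv hv')

/-- **The mixing time of the Thorp shuffle is of order `log n`.** There is an absolute constant
`C` such that, for every `d` and the deck of `n = 2 · 2 ^ d = 2 ^ (d + 1)` cards,
`log₂ n = d + 1 ≤ t_mix (n) ≤ C (d + 1) = C log₂ n`; moreover the total variation distance is at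
most `1 / 4` at every time `t ≥ C log₂ n` and more than `1 / 4` at every time `t < log₂ n`.
In particular `t_mix (n) = Θ (log n)`. -/
theorem result :
    (∃ C : ℕ, ∀ d : ℕ,
      d + 1 ≤ tmix (2 ^ d) ∧ tmix (2 ^ d) ≤ C * (d + 1) ∧
      (∀ t : ℕ, C * (d + 1) ≤ t → tv (2 ^ d) t ≤ 1 / 4) ∧
      (∀ t : ℕ, t < d + 1 → 1 / 4 < tv (2 ^ d) t)) ∧
    (fun d : ℕ => (tmix (2 ^ d) : ℝ)) =Θ[Filter.atTop]
      (fun d : ℕ => Real.log ((2 * 2 ^ d : ℕ) : ℝ)) := by
  obtain ⟨C, hC⟩ := upper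
  have hlow : ∀ d : ℕ, d + 1 ≤ tmix (2 ^ d) := by
    intro d
    have hne : {t : ℕ | tv (2 ^ d) t ≤ 1 / 4}.Nonempty := ⟨C * (d + 1), hC d _ le_rfl⟩
    exact ThorpO.main_lower' d _ (Nat.sInf_mem hne)
  have hup : ∀ d : ℕ, tmix (2 ^ d) ≤ C * (d + 1) := fun d => Nat.sInf_le (hC d _ le_rfl)
  refine ⟨⟨C, fun d => ⟨hlow d, hup d, fun t ht => hC d t ht, fun t ht => ?_⟩⟩, ?_, ?_⟩
  · by_contra h
    have := ThorpO.main_lower' d t (not_lt.1 h)
    omega
  · have hl2 : 0 < Real.log 2 := Real.log_pos one_lt_two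
    refine Asymptotics.IsBigO.of_bound (C / Real.log 2) (Filter.Eventually.of_forall fun d => ?_)
    have hlog : Real.log ((2 * 2 ^ d : ℕ) : ℝ) = (d + 1) * Real.log 2 := by
      rw [← pow_succ', Nat.cast_pow, Real.log_pow]; push_cast; ring
    rw [hlog, Real.norm_of_nonneg (Nat.cast_nonneg _), Real.norm_of_nonneg (by positivity)]
    have h1 : (tmix (2 ^ d) : ℝ) ≤ C * (d + 1) := by exact_mod_cast hup d
    calc (tmix (2 ^ d) : ℝ) ≤ C * (d + 1) := h1
      _ = C / Real.log 2 * ((d + 1) * Real.log 2) := by field_simp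
  · have hl2 : 0 < Real.log 2 := Real.log_pos one_lt_two
    refine Asymptotics.IsBigO.of_bound (Real.log 2) (Filter.Eventually.of_forall fun d => ?_)
    have hlog : Real.log ((2 * 2 ^ d : ℕ) : ℝ) = (d + 1) * Real.log 2 := by
      rw [← pow_succ', Nat.cast_pow, Real.log_pow]; push_cast; ring
    rw [hlog, Real.norm_of_nonneg (Nat.cast_nonneg _), Real.norm_of_nonneg (by positivity)]
    have h1 : ((d : ℝ) + 1) ≤ tmix (2 ^ d) := by exact_mod_cast hlow d
    calc ((d : ℝ) + 1) * Real.log 2 ≤ tmix (2 ^ d) * Real.log 2 := by gcongr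
      _ = Real.log 2 * tmix (2 ^ d) := mul_comm _ _

end Vale.Agent.Results.P162.ThetaLog
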